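import Vale.Agent.P250.Main
import Vale.Agent.P250.Stmt

/-! A simply connected, complete, negatively pinched Kaehler threefold that is not biholomorphic
to a bounded domain. -/

namespace Vale.Agent.Results.P250.WuDisproof

open Vale.Agent.P250.St

theorem result :
    ∃ (U : Set (Fin 3 → ℂ)) (g : (Fin 3 → ℂ) → (Fin 3 → ℂ) → (Fin 3 → ℂ) → ℝ)
      (Γ : (Fin 3 → ℂ) → (Fin 3 → ℂ) → (Fin 3 → ℂ) → (Fin 3 → ℂ)),
      IsOpen U ∧ IsConnected U ∧ SimplyConnectedSpace U ∧ IsKahlerOn U g ∧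
        IsLeviCivitaOn U g Γ ∧ GeodComplete U Γ ∧ Pinched U g Γ ∧ ¬ BiholBounded U := by
  obtain ⟨U, g, Γ, h1, h2, h3, hK, hL, hS, hC, hP, hB⟩ := Vale.Agent.P250.counterexample
  exact ⟨U, fun x a b => g x a b, Γ, h1, h2, h3,
    ⟨fun a b => (hK.smooth.clm_apply contDiffOn_const).clm_apply contDiffOn_const,
      fun x _ b => ⟨fun a a' => by simp, fun c a => by simp⟩, hK.symm, hK.pos, hK.herm,
      hK.closed⟩, ⟨hS, hL⟩, hC, hP, hB⟩

end Vale.Agent.Results.P250.WuDisproof
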